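import Vale.Agent.P088.R2.H349.J.Defs
import Vale.Agent.P088.R2.H16.Calc

/-!
# P088, row LIM: the operators `LxG`, `LyG` of a pair of points commute
-/

open MeasureTheory Set
open scoped ContDiff Matrix

noncomputable section

namespace Vale.Agent.P088.HY.H475

open Vale.Agent.P088.LR Vale.Agent.P088.HY Vale.Agent.P088.HY.H16

variable {n m : ℕ}

theorem contDiff_dx (i : Fin n) {f : VV n → ℝ} (hf : ContDiff ℝ ∞ f) : ContDiff ℝ ∞ (dx i f) :=
  contDiff_dd (ex i) hf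

theorem contDiff_dy (i : Fin n) {f : VV n → ℝ} (hf : ContDiff ℝ ∞ f) : ContDiff ℝ ∞ (dy i f) :=
  contDiff_dd (ey i) hf

theorem dy_mul_fst (j : Fin n) {a : V n → ℝ} (ha : ContDiff ℝ ∞ a) {f : VV n → ℝ}
    (hf : ContDiff ℝ ∞ f) : dy j (fun z => a z.1 * f z) = fun z => a z.1 * dy j f z := by
  funext z
  exact dd_mul_left isOpen_univ (ey j) (contDiff_fst' ha) hf.contDiffOn (dd_ey_fst j ha) z
    (mem_univ z)

theorem dx_mul_snd (j : Fin n) {a : V n → ℝ} (ha : ContDiff ℝ ∞ a) {f : VV n → ℝ}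
    (hf : ContDiff ℝ ∞ f) : dx j (fun z => a z.2 * f z) = fun z => a z.2 * dx j f z := by
  funext z
  exact dd_mul_left isOpen_univ (ex j) (contDiff_snd' ha) hf.contDiffOn (dd_ex_snd j ha) z
    (mem_univ z)

theorem dx_sum (j : Fin n) {ι : Type} (t : Finset ι) {f : ι → VV n → ℝ}
    (hf : ∀ i ∈ t, ContDiff ℝ ∞ (f i)) :
    dx j (fun z => ∑ i ∈ t, f i z) = fun z => ∑ i ∈ t, dx j (f i) z := by
  funext z
  exact dd_sum isOpen_univ (ex j) t (fun i hi => (hf i hi).contDiffOn) z (mem_univ z)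

theorem dy_sum (j : Fin n) {ι : Type} (t : Finset ι) {f : ι → VV n → ℝ}
    (hf : ∀ i ∈ t, ContDiff ℝ ∞ (f i)) :
    dy j (fun z => ∑ i ∈ t, f i z) = fun z => ∑ i ∈ t, dy j (f i) z := by
  funext z
  exact dd_sum isOpen_univ (ey j) t (fun i hi => (hf i hi).contDiffOn) z (mem_univ z)

theorem dx_dy (i j : Fin n) {f : VV n → ℝ} (hf : ContDiff ℝ ∞ f) :
    dx i (dy j f) = dy j (dx i f) := by
  funext z
  exact dd_comm isOpen_univ (ex i) (ey j) hf.contDiffOn z (mem_univ z)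

/-- Indices of the terms of an operator of second order. -/
abbrev Tm (n : ℕ) := (Fin n × Fin n) ⊕ (Fin n ⊕ Unit)

/-- The derivatives in `x`. -/
def opx : Tm n → (VV n → ℝ) → VV n → ℝ
  | .inl ij, f => dx ij.1 (dx ij.2 f)
  | .inr (.inl l), f => dx l f
  | .inr (.inr _), f => f

/-- The derivatives in `y`. -/
def opy : Tm n → (VV n → ℝ) → VV n → ℝ
  | .inl ij, f => dy ij.1 (dy ij.2 f)
  | .inr (.inl l), f => dy l f
  | .inr (.inr _), f => f

/-- The coefficients. -/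
def cf (s : MF n) (e : Co n m) : Tm n → V n → Matrix (Fin m) (Fin m) ℝ
  | .inl ij, x => s x ij.1 ij.2 • (1 : Matrix (Fin m) (Fin m) ℝ)
  | .inr (.inl l), x => e.b l x
  | .inr (.inr _), x => e.c x

theorem cf_comm {s₁ s₂ : MF n} {e₁ e₂ : Co n m} (hC : Com e₁ e₂) (α β : Tm n) (x y : V n) :
    cf s₂ e₂ β y * cf s₁ e₁ α x = cf s₁ e₁ α x * cf s₂ e₂ β y := by
  rcases α with ij | l | u <;> rcases β with ij' | l' | u'
  · simp [cf]; rw [smul_comm]
  · simp [cf]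
  · simp [cf]
  · simp [cf]
  · exact (hC.bb l l' x y).symm
  · exact (hC.bc l x y).symm
  · simp [cf]
  · exact (hC.cb l' x y).symm
  · exact (hC.cc x y).symm

theorem contDiff_opx (α : Tm n) {f : VV n → ℝ} (hf : ContDiff ℝ ∞ f) :
    ContDiff ℝ ∞ (opx α f) := by
  rcases α with ij | l | u
  · exact contDiff_dx _ (contDiff_dx _ hf)
  · exact contDiff_dx _ hf
  · exact hf

theorem contDiff_opy (α : Tm n) {f : VV n → ℝ} (hf : ContDiff ℝ ∞ f) :
    ContDiff ℝ ∞ (opy α f) := by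
  rcases α with ij | l | u
  · exact contDiff_dy _ (contDiff_dy _ hf)
  · exact contDiff_dy _ hf
  · exact hf

theorem opy_mul (β : Tm n) {a : V n → ℝ} (ha : ContDiff ℝ ∞ a) {f : VV n → ℝ}
    (hf : ContDiff ℝ ∞ f) : opy β (fun z => a z.1 * f z) = fun z => a z.1 * opy β f z := by
  rcases β with ij | l | u
  · simp only [opy]
    rw [dy_mul_fst _ ha hf, dy_mul_fst _ ha (contDiff_dy _ hf)]
  · exact dy_mul_fst _ ha hf
  · rfl

theorem opx_mul (β : Tm n) {a : V n → ℝ} (ha : ContDiff ℝ ∞ a) {f : VV n → ℝ}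
    (hf : ContDiff ℝ ∞ f) : opx β (fun z => a z.2 * f z) = fun z => a z.2 * opx β f z := by
  rcases β with ij | l | u
  · simp only [opx]
    rw [dx_mul_snd _ ha hf, dx_mul_snd _ ha (contDiff_dx _ hf)]
  · exact dx_mul_snd _ ha hf
  · rfl

theorem opx_sum (α : Tm n) {ι : Type} (t : Finset ι) {f : ι → VV n → ℝ}
    (hf : ∀ i ∈ t, ContDiff ℝ ∞ (f i)) :
    opx α (fun z => ∑ i ∈ t, f i z) = fun z => ∑ i ∈ t, opx α (f i) z := by
  rcases α with ij | l | u
  · simp only [opx]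
    rw [dx_sum _ t hf, dx_sum _ t (fun i hi => contDiff_dx _ (hf i hi))]
  · exact dx_sum _ t hf
  · rfl

theorem opy_sum (α : Tm n) {ι : Type} (t : Finset ι) {f : ι → VV n → ℝ}
    (hf : ∀ i ∈ t, ContDiff ℝ ∞ (f i)) :
    opy α (fun z => ∑ i ∈ t, f i z) = fun z => ∑ i ∈ t, opy α (f i) z := by
  rcases α with ij | l | u
  · simp only [opy]
    rw [dy_sum _ t hf, dy_sum _ t (fun i hi => contDiff_dy _ (hf i hi))]
  · exact dy_sum _ t hf
  · rfl

theorem dx_opy (i : Fin n) (β : Tm n) {f : VV n → ℝ} (hf : ContDiff ℝ ∞ f) :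
    dx i (opy β f) = opy β (dx i f) := by
  rcases β with ij | l | u
  · simp only [opy]
    rw [dx_dy _ _ (contDiff_dy _ hf), dx_dy _ _ hf]
  · exact dx_dy _ _ hf
  · rfl

theorem opx_opy (α β : Tm n) {f : VV n → ℝ} (hf : ContDiff ℝ ∞ f) :
    opx α (opy β f) = opy β (opx α f) := by
  rcases α with ij | l | u
  · simp only [opx]
    rw [dx_opy _ β hf, dx_opy _ β (contDiff_dx _ hf)]
  · exact dx_opy _ β hf
  · rfl

theorem LxG_eq (s : MF n) (e : Co n m) (f : Fin m → VV n → ℝ) (p : Fin m) :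
    LxG s e f p = fun z => ∑ α, ∑ q, cf s e α z.1 p q * opx α (f q) z := by
  funext z
  have h1 : Lx s (f p) z
      = ∑ i, ∑ j, ∑ q, (s z.1 i j • (1 : Matrix (Fin m) (Fin m) ℝ)) p q * dx i (dx j (f q)) z := by
    unfold Lx
    refine Finset.sum_congr rfl fun i _ => Finset.sum_congr rfl fun j _ => ?_
    rw [Finset.sum_eq_single p]
    · simp
    · intro q _ hq
      simp [Matrix.one_apply_ne hq.symm]
    · simp
  unfold LxG
  rw [h1]
  simp only [Fintype.sum_sum_type, Fintype.sum_prod_type, Finset.univ_unique,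
    Finset.sum_singleton, cf, opx]
  congr 1
  rw [Finset.sum_add_distrib, Finset.sum_comm]

theorem LyG_eq (s : MF n) (e : Co n m) (f : Fin m → VV n → ℝ) (p : Fin m) :
    LyG s e f p = fun z => ∑ α, ∑ q, cf s e α z.2 p q * opy α (f q) z := by
  funext z
  have h1 : Ly s (f p) z
      = ∑ i, ∑ j, ∑ q, (s z.2 i j • (1 : Matrix (Fin m) (Fin m) ℝ)) p q * dy i (dy j (f q)) z := by
    unfold Ly
    refine Finset.sum_congr rfl fun i _ => Finset.sum_congr rfl fun j _ => ?_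
    rw [Finset.sum_eq_single p]
    · simp
    · intro q _ hq
      simp [Matrix.one_apply_ne hq.symm]
    · simp
  unfold LyG
  rw [h1]
  simp only [Fintype.sum_sum_type, Fintype.sum_prod_type, Finset.univ_unique,
    Finset.sum_singleton, cf, opy]
  congr 1
  rw [Finset.sum_add_distrib, Finset.sum_comm]

/-- Smooth coefficients. -/
theorem contDiff_cf {s : MF n} (hs : SmM s) {e : Co n m}
    (hb : ∀ l p q, ContDiff ℝ ∞ (fun x => e.b l x p q))
    (hc : ∀ p q, ContDiff ℝ ∞ (fun x => e.c x p q)) (α : Tm n) (p q : Fin m) :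
    ContDiff ℝ ∞ (fun x => cf s e α x p q) := by
  rcases α with ij | l | u
  · simp only [cf, Matrix.smul_apply, smul_eq_mul]
    exact (hs ij.1 ij.2).mul contDiff_const
  · exact hb l p q
  · exact hc p q

theorem contDiff_LxG {s : MF n} (hs : SmM s) {e : Co n m}
    (hb : ∀ l p q, ContDiff ℝ ∞ (fun x => e.b l x p q))
    (hc : ∀ p q, ContDiff ℝ ∞ (fun x => e.c x p q)) {k : Fin m → VV n → ℝ}
    (hk : ∀ p, ContDiff ℝ ∞ (k p)) (p : Fin m) : ContDiff ℝ ∞ (LxG s e k p) := by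
  rw [LxG_eq]
  exact ContDiff.sum fun α _ => ContDiff.sum fun q _ =>
    (contDiff_fst' (contDiff_cf hs hb hc α p q)).mul (contDiff_opx α (hk q))

theorem contDiff_LyG {s : MF n} (hs : SmM s) {e : Co n m}
    (hb : ∀ l p q, ContDiff ℝ ∞ (fun x => e.b l x p q))
    (hc : ∀ p q, ContDiff ℝ ∞ (fun x => e.c x p q)) {k : Fin m → VV n → ℝ}
    (hk : ∀ p, ContDiff ℝ ∞ (k p)) (p : Fin m) : ContDiff ℝ ∞ (LyG s e k p) := by
  rw [LyG_eq]
  exact ContDiff.sum fun α _ => ContDiff.sum fun q _ =>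
    (contDiff_snd' (contDiff_cf hs hb hc α p q)).mul (contDiff_opy α (hk q))

/-- `LyG LxG = LxG LyG`. -/
theorem LyG_LxG {s₁ s₂ : MF n} (hs₁ : SmM s₁) (hs₂ : SmM s₂) {e₁ e₂ : Co n m}
    (hb₁ : ∀ l p q, ContDiff ℝ ∞ (fun x => e₁.b l x p q))
    (hc₁ : ∀ p q, ContDiff ℝ ∞ (fun x => e₁.c x p q))
    (hb₂ : ∀ l p q, ContDiff ℝ ∞ (fun x => e₂.b l x p q))
    (hc₂ : ∀ p q, ContDiff ℝ ∞ (fun x => e₂.c x p q)) (hC : Com e₁ e₂) {k : Fin m → VV n → ℝ}
    (hk : ∀ p, ContDiff ℝ ∞ (k p)) (p : Fin m) (z : VV n) :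
    LyG s₂ e₂ (LxG s₁ e₁ k) p z = LxG s₁ e₁ (LyG s₂ e₂ k) p z := by
  have hL : ∀ β q, opy β (LxG s₁ e₁ k q) z
      = ∑ α, ∑ r, cf s₁ e₁ α z.1 q r * opy β (opx α (k r)) z := by
    intro β q
    have hsm : ∀ α r, ContDiff ℝ ∞ (fun z : VV n => cf s₁ e₁ α z.1 q r * opx α (k r) z) :=
      fun α r => (contDiff_fst' (contDiff_cf hs₁ hb₁ hc₁ α q r)).mul (contDiff_opx α (hk r))
    rw [LxG_eq, opy_sum β _ (fun α _ => ContDiff.sum fun r _ => hsm α r)]
    refine Finset.sum_congr rfl fun α _ => ?_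
    rw [opy_sum β _ (fun r _ => hsm α r)]
    refine Finset.sum_congr rfl fun r _ => ?_
    rw [opy_mul β (contDiff_cf hs₁ hb₁ hc₁ α q r) (contDiff_opx α (hk r))]
  have hR : ∀ α q, opx α (LyG s₂ e₂ k q) z
      = ∑ β, ∑ r, cf s₂ e₂ β z.2 q r * opy β (opx α (k r)) z := by
    intro α q
    have hsm : ∀ β r, ContDiff ℝ ∞ (fun z : VV n => cf s₂ e₂ β z.2 q r * opy β (k r) z) :=
      fun β r => (contDiff_snd' (contDiff_cf hs₂ hb₂ hc₂ β q r)).mul (contDiff_opy β (hk r))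
    rw [LyG_eq, opx_sum α _ (fun β _ => ContDiff.sum fun r _ => hsm β r)]
    refine Finset.sum_congr rfl fun β _ => ?_
    rw [opx_sum α _ (fun r _ => hsm β r)]
    refine Finset.sum_congr rfl fun r _ => ?_
    rw [opx_mul α (contDiff_cf hs₂ hb₂ hc₂ β q r) (contDiff_opy β (hk r)), opx_opy α β (hk r)]
  rw [LyG_eq, LxG_eq]
  simp only [hL, hR]
  have e1 : ∀ β, ∑ q, cf s₂ e₂ β z.2 p q * ∑ α, ∑ r, cf s₁ e₁ α z.1 q r * opy β (opx α (k r)) z
      = ∑ α, ∑ r, (cf s₂ e₂ β z.2 * cf s₁ e₁ α z.1) p r * opy β (opx α (k r)) z := by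
    intro β
    simp only [Finset.mul_sum, Matrix.mul_apply, Finset.sum_mul]
    rw [Finset.sum_comm]
    refine Finset.sum_congr rfl fun α _ => ?_
    rw [Finset.sum_comm]
    refine Finset.sum_congr rfl fun r _ => Finset.sum_congr rfl fun q _ => ?_
    ring
  have e2 : ∀ α, ∑ q, cf s₁ e₁ α z.1 p q * ∑ β, ∑ r, cf s₂ e₂ β z.2 q r * opy β (opx α (k r)) z
      = ∑ β, ∑ r, (cf s₁ e₁ α z.1 * cf s₂ e₂ β z.2) p r * opy β (opx α (k r)) z := by
    intro α
    simp only [Finset.mul_sum, Matrix.mul_apply, Finset.sum_mul]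
    rw [Finset.sum_comm]
    refine Finset.sum_congr rfl fun β _ => ?_
    rw [Finset.sum_comm]
    refine Finset.sum_congr rfl fun r _ => Finset.sum_congr rfl fun q _ => ?_
    ring
  simp only [e1, e2]
  rw [Finset.sum_comm]
  refine Finset.sum_congr rfl fun α _ => Finset.sum_congr rfl fun β _ =>
    Finset.sum_congr rfl fun r _ => ?_
  rw [cf_comm hC]

end Vale.Agent.P088.HY.H475
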