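import Vale.Agent.P088.R2.H349.J.Defs
import Vale.Agent.P088.R2.H16.Geo

/-!
# P088, row LIM: weights, Gaussian integrals, geometry near the diagonal
-/

open MeasureTheory Set
open scoped ContDiff Matrix

noncomputable section

namespace Vale.Agent.P088.HY.H475

open Vale.Agent.P088.LR Vale.Agent.P088.HY Vale.Agent.P088.HY.H16

variable {n m : ℕ}

/-! ## The weight -/

theorem rr_pos {x : V n} (hx : x ∈ Bn n) : 0 < rr x := by
  have h : sq x < 1 := hx
  unfold rr; linarith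

theorem rr_le {x : V n} : rr x ≤ 1 / 2 := by
  have := sq_nonneg' x
  unfold rr; linarith

/-- `(r(x) - r(y))² ≤ |x - y|²` on the unit ball. -/
theorem rr_sub_sq {x y : V n} (hx : x ∈ Bn n) (hy : y ∈ Bn n) :
    (rr x - rr y) ^ 2 ≤ sq (x - y) := by
  have h1 : rr x - rr y = -(1 / 2) * ∑ j, (x j - y j) * (x j + y j) := by
    unfold rr sq
    have : ∑ j, (x j - y j) * (x j + y j) = ∑ j, x j ^ 2 - ∑ j, y j ^ 2 := by
      rw [← Finset.sum_sub_distrib]
      exact Finset.sum_congr rfl fun j _ => by ring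
    rw [this]; ring
  have h2 := Finset.sum_mul_sq_le_sq_mul_sq Finset.univ (fun j => x j - y j) (fun j => x j + y j)
  have h3 : ∑ j, (x j + y j) ^ 2 ≤ 4 := by
    have h4 : ∑ j, (x j + y j) ^ 2 ≤ 2 * sq x + 2 * sq y := by
      unfold sq
      rw [Finset.mul_sum, Finset.mul_sum, ← Finset.sum_add_distrib]
      exact Finset.sum_le_sum fun j _ => by nlinarith [sq_nonneg (x j - y j)]
    have h5 : sq x < 1 := hx
    have h6 : sq y < 1 := hy
    linarith
  have h7 : sq (x - y) = ∑ j, (x j - y j) ^ 2 := by simp [sq]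
  have h8 : 0 ≤ ∑ j, (x j - y j) ^ 2 := Finset.sum_nonneg fun _ _ => sq_nonneg _
  rw [h1, h7, mul_pow]
  calc (-(1 / 2) : ℝ) ^ 2 * (∑ j, (x j - y j) * (x j + y j)) ^ 2
      ≤ (-(1 / 2) : ℝ) ^ 2 * ((∑ j, (x j - y j) ^ 2) * ∑ j, (x j + y j) ^ 2) :=
        mul_le_mul_of_nonneg_left h2 (by norm_num)
    _ ≤ (-(1 / 2) : ℝ) ^ 2 * ((∑ j, (x j - y j) ^ 2) * 4) := by gcongr
    _ = ∑ j, (x j - y j) ^ 2 := by ring

theorem sq_sub_comm (x y : V n) : sq (x - y) = sq (y - x) := by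
  unfold sq
  exact Finset.sum_congr rfl fun j _ => by simp only [Pi.sub_apply]; ring

theorem ratio_aux {a b s : ℝ} (ha : 0 < a) (hb : 0 < b) (h : (a - b) ^ 2 ≤ s) :
    a / b ≤ 2 * (1 + s / (2 * a * b)) := by
  rw [div_le_iff₀ hb]
  have e : 2 * (1 + s / (2 * a * b)) * b = 2 * b + s / a := by field_simp
  rw [e]
  have h2 : a ≤ 2 * b + (a - b) ^ 2 / a := by
    rw [← sub_nonneg]
    have : 2 * b + (a - b) ^ 2 / a - a = b ^ 2 / a := by field_simp; ring
    rw [this]; positivity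
  have h3 : (a - b) ^ 2 / a ≤ s / a := by gcongr
  linarith

theorem ratio_x {z : VV n} (hz : z ∈ Un n) : rr z.1 / rr z.2 ≤ 2 * uu z :=
  ratio_aux (rr_pos hz.1) (rr_pos hz.2) (rr_sub_sq hz.1 hz.2)

theorem ratio_y {z : VV n} (hz : z ∈ Un n) : rr z.2 / rr z.1 ≤ 2 * uu z := by
  have h := ratio_aux (rr_pos hz.2) (rr_pos hz.1) (rr_sub_sq hz.2 hz.1)
  rw [sq_sub_comm] at h
  have e : 2 * rr z.2 * rr z.1 = 2 * rr z.1 * rr z.2 := by ring
  rw [e] at h
  exact h

/-- `u - 1 ≥ 2 |x - y|²`. -/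
theorem uu_ge {z : VV n} (hz : z ∈ Un n) : 2 * sq (z.1 - z.2) ≤ uu z - 1 := by
  have ha := rr_pos hz.1
  have hb := rr_pos hz.2
  have ha' := rr_le (x := z.1)
  have hb' := rr_le (x := z.2)
  have e : uu z - 1 = sq (z.1 - z.2) / (2 * rr z.1 * rr z.2) := by unfold uu; ring
  rw [e, le_div_iff₀ (by positivity)]
  have h1 : rr z.1 * rr z.2 ≤ 1 / 4 := by nlinarith
  have h2 := sq_nonneg' (z.1 - z.2)
  nlinarith

theorem wgt_aux {a b u t τ : ℝ} (ha : 0 < a) (hb : 0 < b) (hτ : 2 ≤ τ)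
    (hr : a / b ≤ 2 * u) (ht : 2 * t ≤ u - 1) (ht0 : 0 ≤ t) :
    a ^ 4 * (Real.exp (-(2 * τ * (u - 1))) / (a * b) ^ 2) ≤ 4 * Real.exp (-(2 * τ * t)) := by
  have e : a ^ 4 * (Real.exp (-(2 * τ * (u - 1))) / (a * b) ^ 2)
      = (a / b) ^ 2 * Real.exp (-(2 * τ * (u - 1))) := by field_simp
  rw [e]
  have hu : u ≤ Real.exp (u - 1) := by
    have := Real.add_one_le_exp (u - 1)
    linarith
  have hu1 : 1 ≤ u := by linarith
  have h1 : (a / b) ^ 2 ≤ (2 * Real.exp (u - 1)) ^ 2 := by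
    have h0 : 0 ≤ a / b := by positivity
    refine pow_le_pow_left₀ h0 (hr.trans ?_) 2
    linarith
  calc (a / b) ^ 2 * Real.exp (-(2 * τ * (u - 1)))
      ≤ (2 * Real.exp (u - 1)) ^ 2 * Real.exp (-(2 * τ * (u - 1))) :=
        mul_le_mul_of_nonneg_right h1 (Real.exp_pos _).le
    _ = 4 * Real.exp (2 * (u - 1) + -(2 * τ * (u - 1))) := by
        rw [mul_pow, Real.exp_add, ← Real.exp_nat_mul]
        push_cast
        ring
    _ ≤ 4 * Real.exp (-(2 * τ * t)) := by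
        refine mul_le_mul_of_nonneg_left (Real.exp_le_exp.2 ?_) (by norm_num)
        nlinarith [mul_nonneg (by linarith : (0 : ℝ) ≤ τ - 2) ht0,
          mul_nonneg (by linarith : (0 : ℝ) ≤ τ - 2) (by linarith : (0 : ℝ) ≤ u - 1 - 2 * t)]

theorem wT_x {τ : ℝ} (hτ : 2 ≤ τ) {z : VV n} (hz : z ∈ Un n) :
    rr z.1 ^ 4 * wT τ z ≤ 4 * Real.exp (-(2 * τ * sq (z.1 - z.2))) :=
  wgt_aux (rr_pos hz.1) (rr_pos hz.2) hτ (ratio_x hz) (uu_ge hz) (sq_nonneg' _)

theorem wT_y {τ : ℝ} (hτ : 2 ≤ τ) {z : VV n} (hz : z ∈ Un n) :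
    rr z.2 ^ 4 * wT τ z ≤ 4 * Real.exp (-(2 * τ * sq (z.1 - z.2))) := by
  have h := wgt_aux (rr_pos hz.2) (rr_pos hz.1) hτ (ratio_y hz) (uu_ge hz) (sq_nonneg' _)
  unfold wT
  rw [mul_comm (rr z.1) (rr z.2)]
  exact h

theorem wT_nonneg (τ : ℝ) (z : VV n) : 0 ≤ wT τ z := by unfold wT; positivity

/-! ## Gaussian integrals -/

theorem exp_sq (b : ℝ) (q : V n) : Real.exp (-(b * sq q)) = ∏ j, Real.exp (-b * q j ^ 2) := by
  rw [← Real.exp_sum]
  congr 1
  unfold sq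
  rw [Finset.mul_sum, ← Finset.sum_neg_distrib]
  exact Finset.sum_congr rfl fun j _ => by ring

theorem gauss_int {b : ℝ} (hb : 0 < b) : Integrable (fun q : V n => Real.exp (-(b * sq q))) := by
  simp only [exp_sq]
  exact Integrable.fintype_prod (f := fun (_ : Fin n) (t : ℝ) => Real.exp (-b * t ^ 2))
    fun _ => integrable_exp_neg_mul_sq hb

theorem gauss_val (b : ℝ) : ∫ q : V n, Real.exp (-(b * sq q)) = √(Real.pi / b) ^ n := by
  simp only [exp_sq]
  rw [integral_fintype_prod_volume_eq_pow (fun t : ℝ => Real.exp (-b * t ^ 2)), integral_gaussian,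
    Fintype.card_fin]

theorem Bn_subset : Bn n ⊆ Metric.closedBall (0 : V n) 1 := by
  intro x hx
  rw [mem_closedBall_zero_iff, pi_norm_le_iff_of_nonneg zero_le_one]
  intro j
  have h1 : x j ^ 2 ≤ sq x :=
    Finset.single_le_sum (f := fun j => x j ^ 2) (fun _ _ => sq_nonneg _) (Finset.mem_univ j)
  have h2 : sq x < 1 := hx
  rw [Real.norm_eq_abs]
  exact abs_le_one_iff_mul_self_le_one.2 (by nlinarith)

theorem Un_subset : Un n ⊆ Metric.closedBall (0 : VV n) 1 := by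
  intro z hz
  have h : (0 : VV n) = ((0 : V n), (0 : V n)) := rfl
  rw [h, ← closedBall_prod_same]
  exact ⟨Bn_subset hz.1, Bn_subset hz.2⟩

theorem vol_Bn_lt : volume (Bn n) < ⊤ :=
  (measure_mono Bn_subset).trans_lt (isCompact_closedBall _ _).measure_lt_top

theorem vol_Un_lt : volume (Un n) < ⊤ :=
  (measure_mono Un_subset).trans_lt (isCompact_closedBall _ _).measure_lt_top

/-- Continuous functions are integrable on `Un`. -/
theorem intOn_Un {f : VV n → ℝ} (hf : Continuous f) : IntegrableOn f (Un n) :=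
  (hf.continuousOn.integrableOn_compact (isCompact_closedBall _ _)).mono_set Un_subset

theorem cont_gauss (b : ℝ) : Continuous (fun z : VV n => Real.exp (-(b * sq (z.1 - z.2)))) := by
  have h : Continuous (fun z : VV n => sq (z.1 - z.2)) :=
    continuous_sq.comp (continuous_fst.sub continuous_snd)
  fun_prop

theorem gauss_Un {b : ℝ} (hb : 0 < b) :
    ∫ z in Un n, Real.exp (-(b * sq (z.1 - z.2))) ≤ volume.real (Bn n) * √(Real.pi / b) ^ n := by
  have h0 : ∀ x : V n, ∫ y in Bn n, Real.exp (-(b * sq (x - y))) ≤ √(Real.pi / b) ^ n := by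
    intro x
    have hi : Integrable (fun y : V n => Real.exp (-(b * sq (x - y)))) :=
      (gauss_int hb).comp_sub_left x
    calc ∫ y in Bn n, Real.exp (-(b * sq (x - y))) ≤ ∫ y, Real.exp (-(b * sq (x - y))) :=
          setIntegral_le_integral hi (Filter.Eventually.of_forall fun y => (Real.exp_pos _).le)
      _ = ∫ y : V n, Real.exp (-(b * sq y)) :=
          integral_sub_left_eq_self (fun q : V n => Real.exp (-(b * sq q))) volume x
      _ = _ := gauss_val b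
  have h1 : ∫ z in Un n, Real.exp (-(b * sq (z.1 - z.2)))
      = ∫ x in Bn n, ∫ y in Bn n, Real.exp (-(b * sq (x - y))) := by
    have := setIntegral_prod (μ := (volume : Measure (V n))) (ν := (volume : Measure (V n)))
      (fun z : V n × V n => Real.exp (-(b * sq (z.1 - z.2)))) (s := Bn n) (t := Bn n)
      (by
        have := intOn_Un (n := n) (cont_gauss b)
        exact this)
    exact this
  rw [h1]
  have h2 : ∫ x in Bn n, ∫ y in Bn n, Real.exp (-(b * sq (x - y)))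
      ≤ ∫ x in Bn n, √(Real.pi / b) ^ n := by
    refine integral_mono_of_nonneg (Filter.Eventually.of_forall fun x => ?_)
      (integrableOn_const vol_Bn_lt.ne) (Filter.Eventually.of_forall h0)
    exact integral_nonneg fun y => (Real.exp_pos _).le
  refine h2.trans (le_of_eq ?_)
  simp [Measure.real]

/-! ## Bounds of smooth functions -/

/-- Bound of the derivatives up to order `K` on a compact set. -/
theorem exists_bd {F : VV n → ℝ} (hF : ContDiff ℝ ∞ F) (K : ℕ) :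
    ∃ B : ℝ, 0 ≤ B ∧ ∀ l ≤ K, ∀ z ∈ Metric.closedBall (0 : VV n) 1,
      ‖iteratedFDeriv ℝ l F z‖ ≤ B := by
  have h1 : ∀ l : ℕ, ∃ B : ℝ, 0 ≤ B ∧ ∀ z ∈ Metric.closedBall (0 : VV n) 1,
      ‖iteratedFDeriv ℝ l F z‖ ≤ B := by
    intro l
    have hc : Continuous (iteratedFDeriv ℝ l F) :=
      hF.continuous_iteratedFDeriv (by exact_mod_cast le_top)
    obtain ⟨B, hB⟩ := (isCompact_closedBall (0 : VV n) 1).exists_bound_of_continuousOn
      hc.continuousOn
    exact ⟨max B 0, le_max_right _ _, fun z hz => (hB z hz).trans (le_max_left _ _)⟩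
  choose B hB0 hB using h1
  refine ⟨∑ l ∈ Finset.range (K + 1), B l, Finset.sum_nonneg fun l _ => hB0 l, ?_⟩
  intro l hl z hz
  exact (hB l z hz).trans (Finset.single_le_sum (f := B) (fun l _ => hB0 l)
    (Finset.mem_range.2 (by omega)))

theorem norm_sub_sq_le (x y : V n) : ‖y - x‖ ^ 2 ≤ sq (x - y) := by
  have h : ‖y - x‖ ≤ √(sq (x - y)) := by
    rw [pi_norm_le_iff_of_nonneg (Real.sqrt_nonneg _)]
    intro j
    rw [Real.norm_eq_abs]
    refine Real.abs_le_sqrt ?_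
    have h1 : (x - y) j ^ 2 ≤ sq (x - y) :=
      Finset.single_le_sum (f := fun j => (x - y) j ^ 2) (fun _ _ => sq_nonneg _)
        (Finset.mem_univ j)
    simp only [Pi.sub_apply] at h1 ⊢
    nlinarith
  calc ‖y - x‖ ^ 2 ≤ √(sq (x - y)) ^ 2 := pow_le_pow_left₀ (norm_nonneg _) h 2
    _ = sq (x - y) := Real.sq_sqrt (sq_nonneg' _)

/-- A smooth function which vanishes on the diagonal is `O(|x - y|)`. -/
theorem diag_le {F : VV n → ℝ} (hF : ContDiff ℝ ∞ F) {B : ℝ} (hB : ∀ z ∈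
    Metric.closedBall (0 : VV n) 1, ‖iteratedFDeriv ℝ 1 F z‖ ≤ B)
    (h0 : ∀ x ∈ Bn n, F (x, x) = 0) {z : VV n} (hz : z ∈ Un n) : |F z| ≤ B * ‖z.2 - z.1‖ := by
  have h1 : ((z.1, z.1) : VV n) ∈ Metric.closedBall (0 : VV n) 1 := Un_subset ⟨hz.1, hz.1⟩
  have h2 := Convex.norm_image_sub_le_of_norm_fderiv_le (𝕜 := ℝ) (f := F) (C := B)
    (s := Metric.closedBall (0 : VV n) 1) (x := (z.1, z.1)) (y := z)
    (fun x _ => hF.differentiable (by simp) x)
    (fun x hx => by rw [← norm_iteratedFDeriv_one]; exact hB x hx)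
    (convex_closedBall _ _) h1 (Un_subset hz)
  rw [h0 z.1 hz.1, sub_zero, Real.norm_eq_abs] at h2
  refine h2.trans (le_of_eq ?_)
  congr 1
  have : z - ((z.1, z.1) : VV n) = (0, z.2 - z.1) := by ext <;> simp
  rw [this, Prod.norm_def]
  simp

/-! ## Near the diagonal -/

theorem sq_near' {p x : V n} {r : ℝ} (hp : p ∈ Bs n (3 / 4)) (hnr : n * r ^ 2 ≤ 1 / 32)
    (hx : dist x p < r) : sq x < 7 / 8 := by
  have hp' : sq p < 9 / 16 := by
    have : sq p < (3 / 4 : ℝ) ^ 2 := hp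
    norm_num at this ⊢
    exact this
  have h1 : sq x ≤ 4 / 3 * sq p + 4 * (n * r ^ 2) := by
    unfold sq
    rw [Finset.mul_sum]
    have : (n : ℝ) * r ^ 2 = ∑ _j : Fin n, r ^ 2 := by simp
    rw [this, Finset.mul_sum, ← Finset.sum_add_distrib]
    refine Finset.sum_le_sum fun j _ => ?_
    have hj : |x j - p j| ≤ r := by
      have := (dist_le_pi_dist x p j).trans hx.le
      rwa [Real.dist_eq] at this
    have hj2 : (x j - p j) ^ 2 ≤ r ^ 2 := by
      rw [← sq_abs]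
      exact pow_le_pow_left₀ (abs_nonneg _) hj 2
    nlinarith [sq_nonneg (3 * (x j - p j) - p j)]
  linarith

theorem ball_facts {τ : ℝ} (hτ : 0 < τ) (hτn : 128 * n ≤ τ) {p : V n} (hp : p ∈ Bs n (3 / 4))
    {z : VV n} (hz : z ∈ Metric.ball (p, p) (2 / √τ)) :
    z ∈ Un n ∧ Real.exp (-(4096 * n)) ≤ wT τ z := by
  have hs : 0 < √τ := Real.sqrt_pos.2 hτ
  have hr2 : (2 / √τ) ^ 2 = 4 / τ := by
    rw [div_pow, Real.sq_sqrt hτ.le]; norm_num
  have hnr : (n : ℝ) * (2 / √τ) ^ 2 ≤ 1 / 32 := by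
    rw [hr2, ← mul_div_assoc, div_le_iff₀ hτ]; linarith
  obtain ⟨hz1, hz2⟩ := mem_ball_pp.1 hz
  have h1 := sq_near' hp hnr hz1
  have h2 := sq_near' hp hnr hz2
  have h3 : sq (z.1 - z.2) ≤ 4 * (n * (2 / √τ) ^ 2) := sq_sub_near hz1 hz2
  rw [hr2] at h3
  refine ⟨⟨?_, ?_⟩, ?_⟩
  · show sq z.1 < 1
    linarith
  · show sq z.2 < 1
    linarith
  have r1 : 1 / 16 < rr z.1 := by unfold rr; linarith
  have r2 : 1 / 16 < rr z.2 := by unfold rr; linarith
  have r1' : rr z.1 ≤ 1 / 2 := rr_le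
  have r2' : rr z.2 ≤ 1 / 2 := rr_le
  have r12 : 1 / 256 < rr z.1 * rr z.2 := by nlinarith
  have r12' : rr z.1 * rr z.2 ≤ 1 := by nlinarith
  have hu : 2 * τ * (uu z - 1) ≤ 4096 * n := by
    have e : uu z - 1 = sq (z.1 - z.2) / (2 * (rr z.1 * rr z.2)) := by
      unfold uu; ring
    rw [e]
    have hle : sq (z.1 - z.2) / (2 * (rr z.1 * rr z.2)) ≤ (4 * (n * (4 / τ))) / (2 * (1 / 256)) := by
      apply div_le_div₀ (by positivity) h3 (by norm_num)
      linarith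
    calc 2 * τ * (sq (z.1 - z.2) / (2 * (rr z.1 * rr z.2)))
        ≤ 2 * τ * ((4 * (n * (4 / τ))) / (2 * (1 / 256))) :=
          mul_le_mul_of_nonneg_left hle (by positivity)
      _ = 4096 * n := by field_simp; ring
  unfold wT
  rw [le_div_iff₀ (by positivity)]
  calc Real.exp (-(4096 * n)) * (rr z.1 * rr z.2) ^ 2
      ≤ Real.exp (-(4096 * n)) * 1 := by
        apply mul_le_mul_of_nonneg_left _ (Real.exp_pos _).le
        exact pow_le_one₀ (by positivity) r12'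
    _ ≤ Real.exp (-(2 * τ * (uu z - 1))) := by
        rw [mul_one]
        exact Real.exp_le_exp.2 (by linarith)

theorem Bs_sub_Bn : Bs n (3 / 4) ⊆ Bn n := by
  intro x hx
  have : sq x < (3 / 4 : ℝ) ^ 2 := hx
  show sq x < 1
  linarith [show (3 / 4 : ℝ) ^ 2 = 9 / 16 by norm_num]

theorem vol_Bs34 : volume (Bs n (3 / 4)) < ⊤ := (measure_mono Bs_sub_Bn).trans_lt vol_Bn_lt

theorem CoOk_mono {K K' : ℕ} {ε ε' M M' : ℝ} {e : Co n m} (hK : K' ≤ K) (hε : ε ≤ ε')
    (hM : M ≤ M') (h : CoOk K ε M e) : CoOk K' ε' M' e :=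
  ⟨h.sb, h.sc, fun l p q => Cl_mono hK hε (h.bb l p q), fun p q => Cl_mono hK hM (h.bc p q)⟩

end Vale.Agent.P088.HY.H475
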