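import Vale.Agent.P088.R2.H349.J.Spec
import Vale.Agent.P088.R2.H475.LimA
import Vale.Agent.P088.R2.H475.LimB

/-!
# P088, row LIM: the solutions `w` are small on the diagonal
-/

open MeasureTheory Set
open scoped ContDiff Matrix

noncomputable section

namespace Vale.Agent.P088.HY.H475

open Vale.Agent.P088.LR Vale.Agent.P088.HY Vale.Agent.P088.HY.H16

variable {n m : ℕ}

/-- The weighted integral of the right hand sides. -/
theorem src_bd {τ H : ℝ} (hτ : 2 ≤ τ) {F₁ F₂ : VV n → ℝ} (c1 : Continuous F₁)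
    (c2 : Continuous F₂)
    (h1 : ∀ z ∈ Un n, F₁ z ^ 2 * Real.exp (-(2 * τ * sq (z.1 - z.2))) ≤
      H ^ 2 * Real.exp (-(τ * sq (z.1 - z.2))))
    (h2 : ∀ z ∈ Un n, F₂ z ^ 2 * Real.exp (-(2 * τ * sq (z.1 - z.2))) ≤
      H ^ 2 * Real.exp (-(τ * sq (z.1 - z.2)))) :
    IntegrableOn (fun z => (rr z.1 ^ 4 * F₁ z ^ 2 + rr z.2 ^ 4 * F₂ z ^ 2) * wT τ z) (Un n) ∧
    ∫ z in Un n, (rr z.1 ^ 4 * F₁ z ^ 2 + rr z.2 ^ 4 * F₂ z ^ 2) * wT τ z ≤
      8 * H ^ 2 * (volume.real (Bn n) * √(Real.pi / τ) ^ n) := by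
  have hτ0 : 0 < τ := by linarith
  have hpt : ∀ z ∈ Un n, (rr z.1 ^ 4 * F₁ z ^ 2 + rr z.2 ^ 4 * F₂ z ^ 2) * wT τ z ≤
      8 * H ^ 2 * Real.exp (-(τ * sq (z.1 - z.2))) := by
    intro z hz
    have e : (rr z.1 ^ 4 * F₁ z ^ 2 + rr z.2 ^ 4 * F₂ z ^ 2) * wT τ z
        = F₁ z ^ 2 * (rr z.1 ^ 4 * wT τ z) + F₂ z ^ 2 * (rr z.2 ^ 4 * wT τ z) := by ring
    rw [e]
    have a1 := mul_le_mul_of_nonneg_left (wT_x hτ hz) (sq_nonneg (F₁ z))
    have a2 := mul_le_mul_of_nonneg_left (wT_y hτ hz) (sq_nonneg (F₂ z))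
    have b1 := h1 z hz
    have b2 := h2 z hz
    nlinarith
  have hnn : ∀ z, 0 ≤ (rr z.1 ^ 4 * F₁ z ^ 2 + rr z.2 ^ 4 * F₂ z ^ 2) * wT τ z := by
    intro z
    exact mul_nonneg (by positivity) (wT_nonneg τ z)
  have hg : IntegrableOn (fun z : VV n => 8 * H ^ 2 * Real.exp (-(τ * sq (z.1 - z.2)))) (Un n) :=
    (intOn_Un (cont_gauss τ)).const_mul _
  have hi : IntegrableOn (fun z => (rr z.1 ^ 4 * F₁ z ^ 2 + rr z.2 ^ 4 * F₂ z ^ 2) * wT τ z)
      (Un n) := by
    refine Integrable.mono' hg ?_ ?_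
    · refine Measurable.aestronglyMeasurable ?_
      have m1 : Measurable F₁ := c1.measurable
      have m2 : Measurable F₂ := c2.measurable
      have m3 : Measurable (fun z : VV n => rr z.1) := by
        have : Continuous (fun z : VV n => rr z.1) := by
          have := continuous_sq (n := n)
          unfold rr
          fun_prop
        exact this.measurable
      have m4 : Measurable (fun z : VV n => rr z.2) := by
        have : Continuous (fun z : VV n => rr z.2) := by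
          have := continuous_sq (n := n)
          unfold rr
          fun_prop
        exact this.measurable
      have m5 : Measurable (fun z : VV n => sq (z.1 - z.2)) := by
        have : Continuous (fun z : VV n => sq (z.1 - z.2)) :=
          continuous_sq.comp (continuous_fst.sub continuous_snd)
        exact this.measurable
      unfold wT uu
      fun_prop
    · refine (ae_restrict_iff' isOpen_Un.measurableSet).2
        (Filter.Eventually.of_forall fun z hz => ?_)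
      rw [Real.norm_of_nonneg (hnn z)]
      exact hpt z hz
  refine ⟨hi, ?_⟩
  calc _ ≤ ∫ z in Un n, 8 * H ^ 2 * Real.exp (-(τ * sq (z.1 - z.2))) :=
        setIntegral_mono_on hi hg isOpen_Un.measurableSet hpt
    _ = 8 * H ^ 2 * ∫ z in Un n, Real.exp (-(τ * sq (z.1 - z.2))) := integral_const_mul _ _
    _ ≤ _ := mul_le_mul_of_nonneg_left (gauss_Un hτ0) (by positivity)

theorem norm_ex_le (i : Fin n) : ‖((Pi.single i 1, 0) : VV n)‖ ≤ 1 := by
  rw [Prod.norm_def]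
  simp only [norm_zero]
  refine max_le ?_ zero_le_one
  rw [pi_norm_le_iff_of_nonneg zero_le_one]
  intro j
  by_cases h : j = i
  · subst h; simp
  · simp [h]

theorem norm_ey_le (i : Fin n) : ‖((0, Pi.single i 1) : VV n)‖ ≤ 1 := by
  rw [Prod.norm_def]
  simp only [norm_zero]
  refine max_le zero_le_one ?_
  rw [pi_norm_le_iff_of_nonneg zero_le_one]
  intro j
  by_cases h : j = i
  · subst h; simp
  · simp [h]

theorem dx_le (i : Fin n) (f : VV n → ℝ) (z : VV n) : |dx i f z| ≤ ‖iteratedFDeriv ℝ 1 f z‖ := by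
  rw [norm_iteratedFDeriv_one]
  calc |dx i f z| ≤ ‖fderiv ℝ f z‖ * ‖((Pi.single i 1, 0) : VV n)‖ := (fderiv ℝ f z).le_opNorm _
    _ ≤ ‖fderiv ℝ f z‖ * 1 := mul_le_mul_of_nonneg_left (norm_ex_le i) (norm_nonneg _)
    _ = _ := mul_one _

theorem dy_le (i : Fin n) (f : VV n → ℝ) (z : VV n) : |dy i f z| ≤ ‖iteratedFDeriv ℝ 1 f z‖ := by
  rw [norm_iteratedFDeriv_one]
  calc |dy i f z| ≤ ‖fderiv ℝ f z‖ * ‖((0, Pi.single i 1) : VV n)‖ := (fderiv ℝ f z).le_opNorm _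
    _ ≤ ‖fderiv ℝ f z‖ * 1 := mul_le_mul_of_nonneg_left (norm_ey_le i) (norm_nonneg _)
    _ = _ := mul_one _

theorem amgm {s H g : ℝ} (hs : 1 ≤ s) (hH : 0 < H) (hg : 0 ≤ g) (n : ℕ) :
    s ^ n * √g + H / s ^ 2 ≤ s ^ (2 * n + 1) / (2 * H) * g + 3 / 2 * H / s := by
  have hs0 : 0 < s := by linarith
  have h1 : s ^ n * √g ≤ s ^ (2 * n + 1) / (2 * H) * g + H / (2 * s) := by
    have e : s ^ (2 * n + 1) / (2 * H) * g + H / (2 * s) - s ^ n * √g
        = (s ^ (n + 1) * √g - H) ^ 2 / (2 * H * s) := by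
      have hg2 : g = √g ^ 2 := (Real.sq_sqrt hg).symm
      have : s ^ (2 * n + 1) / (2 * H) * g = s ^ (2 * n + 1) / (2 * H) * √g ^ 2 := by rw [← hg2]
      rw [this]
      field_simp
      ring
    have : 0 ≤ (s ^ (n + 1) * √g - H) ^ 2 / (2 * H * s) := by positivity
    linarith
  have h2 : H / s ^ 2 ≤ H / s := by
    refine div_le_div_of_nonneg_left hH.le hs0 ?_
    nlinarith
  have h3 : H / (2 * s) + H / s = 3 / 2 * H / s := by field_simp; ring
  linarith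

/-- The constant. -/
def C3 (n m : ℕ) (CS : ℝ) : ℝ :=
  4 ^ n * Real.exp (4096 * n) * (CS * (m * (8 * volume.real (Bn n) * √Real.pi ^ n)))

def C5 (n m : ℕ) (CS CI : ℝ) : ℝ :=
  m * CI * (C3 n m CS / 2 + 3 / 2 * volume.real (Bs n (3 / 4)))

theorem C3_nonneg {CS : ℝ} (h : 0 ≤ CS) : 0 ≤ C3 n m CS := by unfold C3; positivity

theorem C5_nonneg {CS CI : ℝ} (h : 0 ≤ CS) (h' : 0 ≤ CI) : 0 ≤ C5 n m CS CI := by
  have := C3_nonneg (n := n) (m := m) h
  unfold C5; positivity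

/-- The mean values over the balls about the diagonal. -/
theorem mean_bd {CS τ H : ℝ} (hCS : 0 < CS) (hτ2 : 2 ≤ τ) (hτn : 128 * n ≤ τ)
    {w : Fin m → VV n → ℝ} (hw : ∀ p, ContDiffOn ℝ ∞ (w p) (Un n))
    (hwI : ∀ p, IntegrableOn (fun z => w p z ^ 2 * wT τ z) (Un n))
    (hJ : ∑ p, ∫ z in Un n, w p z ^ 2 * wT τ z ≤
      CS / τ * (m * (8 * H ^ 2 * (volume.real (Bn n) * √(Real.pi / τ) ^ n)))) :
    (∀ x ∈ Bs n (3 / 4), ∀ p, IntegrableOn (fun z => w p z ^ 2)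
      (Metric.ball (x, x) (2 / √τ))) ∧
    IntegrableOn (fun x => ∑ p, ∫ z in Metric.ball (x, x) (2 / √τ), w p z ^ 2) (Bs n (3 / 4)) ∧
    ∫ x in Bs n (3 / 4), ∑ p, ∫ z in Metric.ball (x, x) (2 / √τ), w p z ^ 2 ≤
      C3 n m CS * H ^ 2 / √τ ^ (2 * n + 2) := by
  have hτ0 : 0 < τ := by linarith
  have hs : 0 < √τ := Real.sqrt_pos.2 hτ0
  set E : ℝ := Real.exp (4096 * n) with hE
  have hE0 : 0 < E := Real.exp_pos _
  have hEw : ∀ x ∈ Bs n (3 / 4), ∀ z ∈ Metric.ball ((x, x) : VV n) (2 / √τ),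
      1 ≤ E * wT τ z := by
    intro x hx z hz
    calc (1 : ℝ) = E * Real.exp (-(4096 * n)) := by
          rw [hE, ← Real.exp_add]; simp
      _ ≤ E * wT τ z := mul_le_mul_of_nonneg_left (ball_facts hτ0 hτn hx hz).2 hE0.le
  have hsub : ∀ x ∈ Bs n (3 / 4), Metric.ball ((x, x) : VV n) (2 / √τ) ⊆ Un n :=
    fun x hx z hz => (ball_facts hτ0 hτn hx hz).1
  have hint : ∀ x ∈ Bs n (3 / 4), ∀ p, IntegrableOn (fun z => w p z ^ 2)
      (Metric.ball (x, x) (2 / √τ)) := by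
    intro x hx p
    refine Integrable.mono' (((hwI p).mono_set (hsub x hx)).const_mul E) ?_ ?_
    · exact ((((hw p).continuousOn.mono (hsub x hx)).pow 2).aestronglyMeasurable
        Metric.isOpen_ball.measurableSet)
    · refine (ae_restrict_iff' Metric.isOpen_ball.measurableSet).2
        (Filter.Eventually.of_forall fun z hz => ?_)
      rw [Real.norm_of_nonneg (sq_nonneg _)]
      have h1 := hEw x hx z hz
      nlinarith [sq_nonneg (w p z)]
  have hsum : ∀ x ∈ Bs n (3 / 4), ∑ p, ∫ z in Metric.ball (x, x) (2 / √τ), w p z ^ 2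
      = ∫ z in Metric.ball (x, x) (2 / √τ), ∑ p, w p z ^ 2 := by
    intro x hx
    rw [integral_finset_sum _ fun p _ => hint x hx p]
  have hg : IntegrableOn (fun z => E * ∑ p, w p z ^ 2 * wT τ z) (Un n) :=
    (integrable_finset_sum _ fun p _ => hwI p).const_mul E
  obtain ⟨f1, f2⟩ := fub (n := n) (2 / √τ) (by positivity) (Bs n (3 / 4))
    (isOpen_Bs _).measurableSet vol_Bs34 (Un n) isOpen_Un.measurableSet
    (fun z => ∑ p, w p z ^ 2) (fun z => E * ∑ p, w p z ^ 2 * wT τ z)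
    ((continuousOn_finsetSum _ fun p _ => (hw p).continuousOn.pow 2).aestronglyMeasurable
      isOpen_Un.measurableSet)
    (fun z => Finset.sum_nonneg fun p _ => sq_nonneg _) hsub hg
    (fun z _ => mul_nonneg hE0.le (Finset.sum_nonneg fun p _ =>
      mul_nonneg (sq_nonneg _) (wT_nonneg τ z))) (by
      intro x hx z hz
      rw [Finset.mul_sum]
      refine Finset.sum_le_sum fun p _ => ?_
      have h1 := hEw x hx z hz
      nlinarith [sq_nonneg (w p z)])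
  refine ⟨hint, (integrableOn_congr_fun hsum (isOpen_Bs _).measurableSet).2 f1, ?_⟩
  rw [setIntegral_congr_fun (isOpen_Bs _).measurableSet hsum]
  refine f2.trans ?_
  rw [integral_const_mul, integral_finset_sum _ fun p _ => hwI p]
  have e1 : √(Real.pi / τ) ^ n = √Real.pi ^ n / √τ ^ n := by
    rw [Real.sqrt_div Real.pi_pos.le, div_pow]
  have e2 : τ = √τ ^ 2 := (Real.sq_sqrt hτ0.le).symm
  have e3 : (2 * (2 / √τ)) ^ n = 4 ^ n / √τ ^ n := by
    rw [← div_pow]; congr 1; ring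
  calc (2 * (2 / √τ)) ^ n * (E * ∑ p, ∫ z in Un n, w p z ^ 2 * wT τ z)
      ≤ (2 * (2 / √τ)) ^ n * (E * (CS / τ * (m * (8 * H ^ 2 *
        (volume.real (Bn n) * √(Real.pi / τ) ^ n))))) := by gcongr
    _ = 4 ^ n / √τ ^ n * (E * (CS / √τ ^ 2 * (m * (8 * H ^ 2 *
        (volume.real (Bn n) * (√Real.pi ^ n / √τ ^ n)))))) := by rw [e1, e3, ← e2]
    _ = C3 n m CS * H ^ 2 / √τ ^ (2 * n + 2) := by
        unfold C3
        rw [← hE]
        have e4 : √τ ^ (2 * n + 2) = √τ ^ n * √τ ^ n * √τ ^ 2 := by ring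
        rw [e4]
        field_simp

/-- The core estimate. -/
theorem core {CS CI τ H : ℝ} (hCS : 0 < CS) (hCI : 0 < CI) (hH : 0 < H)
    (hτ2 : 2 ≤ τ) (hτn : 128 * n ≤ τ) {w : Fin m → VV n → ℝ}
    (hw : ∀ p, ContDiffOn ℝ ∞ (w p) (Un n))
    (hwI : ∀ p, IntegrableOn (fun z => w p z ^ 2 * wT τ z) (Un n))
    (hJ : ∑ p, ∫ z in Un n, w p z ^ 2 * wT τ z ≤
      CS / τ * (m * (8 * H ^ 2 * (volume.real (Bn n) * √(Real.pi / τ) ^ n))))
    (hD : ∀ x ∈ Bs n (3 / 4), ∀ p, ∀ l ≤ 2, ‖iteratedFDeriv ℝ l (w p) (x, x)‖ ≤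
      CI * (√τ ^ (n + l) * √(∑ q, ∫ z in Metric.ball (x, x) (2 / √τ), w q z ^ 2)
        + H * √τ ^ l / √τ ^ 2)) :
    ∫ x in Bs n (3 / 4), ∑ p, |w p (x, x)| ≤ C5 n m CS CI * (H / √τ) ∧
    ∫ x in Bs n (3 / 4), ∑ p, ∑ i, (|dx i (w p) (x, x)| + |dy i (w p) (x, x)|) ≤
      2 * n * (C5 n m CS CI * H) := by
  have hτ0 : 0 < τ := by linarith
  have hs : 0 < √τ := Real.sqrt_pos.2 hτ0
  have hs1 : 1 ≤ √τ := by rw [Real.one_le_sqrt]; linarith
  obtain ⟨-, hgI, hgb⟩ := mean_bd hCS hτ2 hτn hw hwI hJ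
  set g : V n → ℝ := fun x => ∑ q, ∫ z in Metric.ball (x, x) (2 / √τ), w q z ^ 2 with hg
  have hg0 : ∀ x, 0 ≤ g x := fun x => Finset.sum_nonneg fun q _ =>
    integral_nonneg fun z => sq_nonneg _
  set ψ : V n → ℝ := fun x => √τ ^ (2 * n + 1) / (2 * H) * g x + 3 / 2 * H / √τ with hψ
  have hψI : IntegrableOn ψ (Bs n (3 / 4)) :=
    (hgI.const_mul _).add (integrableOn_const vol_Bs34.ne)
  have hψb : ∫ x in Bs n (3 / 4), ψ x ≤
      (C3 n m CS / 2 + 3 / 2 * volume.real (Bs n (3 / 4))) * (H / √τ) := by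
    have e : ∫ x in Bs n (3 / 4), ψ x = √τ ^ (2 * n + 1) / (2 * H) * (∫ x in Bs n (3 / 4), g x)
        + 3 / 2 * H / √τ * volume.real (Bs n (3 / 4)) := by
      rw [hψ]
      rw [integral_add (hgI.const_mul _) (integrableOn_const vol_Bs34.ne), integral_const_mul]
      congr 1
      simp [Measure.real, mul_comm]
    rw [e]
    calc √τ ^ (2 * n + 1) / (2 * H) * (∫ x in Bs n (3 / 4), g x)
        + 3 / 2 * H / √τ * volume.real (Bs n (3 / 4))
        ≤ √τ ^ (2 * n + 1) / (2 * H) * (C3 n m CS * H ^ 2 / √τ ^ (2 * n + 2))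
        + 3 / 2 * H / √τ * volume.real (Bs n (3 / 4)) := by gcongr
      _ = _ := by
        have e4 : √τ ^ (2 * n + 2) = √τ ^ (2 * n + 1) * √τ := by ring
        rw [e4]
        field_simp
  have hψ0 : ∀ x, √τ ^ n * √(g x) + H / √τ ^ 2 ≤ ψ x := fun x => amgm hs1 hH (hg0 x) n
  have p0 : ∀ x ∈ Bs n (3 / 4), ∀ p, |w p (x, x)| ≤ CI * ψ x := by
    intro x hx p
    have h := hD x hx p 0 (by norm_num)
    rw [norm_iteratedFDeriv_zero, Real.norm_eq_abs] at h
    simp only [add_zero, pow_zero, mul_one] at h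
    exact h.trans (mul_le_mul_of_nonneg_left (hψ0 x) hCI.le)
  have p1 : ∀ x ∈ Bs n (3 / 4), ∀ p, ‖iteratedFDeriv ℝ 1 (w p) (x, x)‖ ≤ CI * (√τ * ψ x) := by
    intro x hx p
    have h := hD x hx p 1 (by norm_num)
    refine h.trans (mul_le_mul_of_nonneg_left ?_ hCI.le)
    calc √τ ^ (n + 1) * √(g x) + H * √τ ^ 1 / √τ ^ 2
        = √τ * (√τ ^ n * √(g x) + H / √τ ^ 2) := by ring
      _ ≤ √τ * ψ x := mul_le_mul_of_nonneg_left (hψ0 x) hs.le
  constructor
  · have hb : ∫ x in Bs n (3 / 4), ∑ p, |w p (x, x)| ≤ ∫ x in Bs n (3 / 4), m * CI * ψ x := by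
      refine integral_mono_of_nonneg (Filter.Eventually.of_forall fun x =>
        Finset.sum_nonneg fun p _ => abs_nonneg _) (hψI.const_mul _)
        ((ae_restrict_iff' (isOpen_Bs _).measurableSet).2
          (Filter.Eventually.of_forall fun x hx => ?_))
      calc ∑ p, |w p (x, x)| ≤ ∑ _p : Fin m, CI * ψ x := Finset.sum_le_sum fun p _ => p0 x hx p
        _ = m * CI * ψ x := by simp; ring
    refine hb.trans ?_
    rw [integral_const_mul]
    calc (m : ℝ) * CI * ∫ x in Bs n (3 / 4), ψ x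
        ≤ m * CI * ((C3 n m CS / 2 + 3 / 2 * volume.real (Bs n (3 / 4))) * (H / √τ)) :=
          mul_le_mul_of_nonneg_left hψb (by positivity)
      _ = _ := by unfold C5; ring
  · have hb : ∫ x in Bs n (3 / 4), ∑ p, ∑ i, (|dx i (w p) (x, x)| + |dy i (w p) (x, x)|) ≤
        ∫ x in Bs n (3 / 4), 2 * n * (m * CI) * √τ * ψ x := by
      refine integral_mono_of_nonneg (Filter.Eventually.of_forall fun x =>
        Finset.sum_nonneg fun p _ => Finset.sum_nonneg fun i _ =>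
          add_nonneg (abs_nonneg _) (abs_nonneg _)) (hψI.const_mul _)
        ((ae_restrict_iff' (isOpen_Bs _).measurableSet).2
          (Filter.Eventually.of_forall fun x hx => ?_))
      calc ∑ p, ∑ i, (|dx i (w p) (x, x)| + |dy i (w p) (x, x)|)
          ≤ ∑ _p : Fin m, ∑ _i : Fin n, (CI * (√τ * ψ x) + CI * (√τ * ψ x)) :=
            Finset.sum_le_sum fun p _ => Finset.sum_le_sum fun i _ =>
              add_le_add ((dx_le i _ _).trans (p1 x hx p)) ((dy_le i _ _).trans (p1 x hx p))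
        _ = 2 * n * (m * CI) * √τ * ψ x := by simp; ring
    refine hb.trans ?_
    rw [integral_const_mul]
    calc 2 * (n : ℝ) * (m * CI) * √τ * ∫ x in Bs n (3 / 4), ψ x
        ≤ 2 * n * (m * CI) * √τ *
          ((C3 n m CS / 2 + 3 / 2 * volume.real (Bs n (3 / 4))) * (H / √τ)) :=
          mul_le_mul_of_nonneg_left hψb (by positivity)
      _ = _ := by unfold C5; field_simp

end Vale.Agent.P088.HY.H475
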