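import Vale.Agent.P088.R2.H475.Lim

/-!
# P088, row LIM
-/

open MeasureTheory Set
open scoped ContDiff Matrix

noncomputable section

namespace Vale.Agent.P088.HY.H475

open Vale.Agent.P088.LR Vale.Agent.P088.HY Vale.Agent.P088.HY.H16

variable {n m : ℕ}

theorem DB_self (K : ℕ) (s : MF n) : DB K 0 s s := by
  intro i j l _ x
  have : (fun x => s x i j - s x i j) = fun _ : V n => (0 : ℝ) := by funext x; ring
  rw [this]
  simp

theorem add_bd {F G : VV n → ℝ} (hF : ContDiff ℝ ∞ F) (hG : ContDiff ℝ ∞ G) {l : ℕ} {a b : ℝ}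
    {z : VV n} (h1 : ‖iteratedFDeriv ℝ l F z‖ ≤ a) (h2 : ‖iteratedFDeriv ℝ l G z‖ ≤ b) :
    ‖iteratedFDeriv ℝ l (fun z => F z + G z) z‖ ≤ a + b := by
  have e : iteratedFDeriv ℝ l (fun z => F z + G z) z
      = iteratedFDeriv ℝ l F z + iteratedFDeriv ℝ l G z := by
    have := iteratedFDeriv_add_apply (i := l) (x := z) (𝕜 := ℝ) (f := F) (g := G)
      ((hF.of_le (by exact_mod_cast le_top)).contDiffAt)
      ((hG.of_le (by exact_mod_cast le_top)).contDiffAt)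
    exact this
  rw [e]
  exact (norm_add_le _ _).trans (add_le_add h1 h2)

/-- Bounds of the derivatives of finitely many functions. -/
theorem exists_bd_all {F : Fin m → VV n → ℝ} (hF : ∀ p, ContDiff ℝ ∞ (F p)) (K : ℕ) :
    ∃ B : ℝ, 0 ≤ B ∧ ∀ p, ∀ l ≤ K, ∀ z ∈ Metric.closedBall (0 : VV n) 1,
      ‖iteratedFDeriv ℝ l (F p) z‖ ≤ B := by
  choose B hB0 hB using fun p => exists_bd (hF p) K
  exact ⟨∑ p, B p, Finset.sum_nonneg fun p _ => hB0 p, fun p l hl z hz =>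
    (hB p l hl z hz).trans (Finset.single_le_sum (f := B) (fun p _ => hB0 p) (Finset.mem_univ p))⟩

theorem texp {t : ℝ} (ht : 0 ≤ t) : t * Real.exp (-(2 * t)) ≤ Real.exp (-t) := by
  have h1 : t ≤ Real.exp t := by
    have := Real.add_one_le_exp t
    linarith
  calc t * Real.exp (-(2 * t)) ≤ Real.exp t * Real.exp (-(2 * t)) :=
        mul_le_mul_of_nonneg_right h1 (Real.exp_pos _).le
    _ = Real.exp (-t) := by rw [← Real.exp_add]; congr 1; ring

theorem rowLIM : RowSOLG → RowINPG → RowLIM := by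
  intro hSOLG hINPG n m hn
  obtain ⟨CS, εS, hCS, hεS, hS⟩ := hSOLG n m hn
  obtain ⟨KI, εI, hεI, hI⟩ := hINPG n m
  have hε : 0 < min εS εI := lt_min hεS hεI
  refine ⟨KI + 3, min εS εI, hε, ?_⟩
  intro M hM
  obtain ⟨τS, hτS, hS⟩ := hS M hM
  obtain ⟨CI, hCI, hI⟩ := hI (M + min εS εI) (by positivity)
  intro s e₁ e₂ hs he₁ he₂ hC k hk δ hδ
  have hF₁ : ∀ p, ContDiff ℝ ∞ (LxG s e₁ k p) := contDiff_LxG hs.sm he₁.sb he₁.sc hk
  have hF₂ : ∀ p, ContDiff ℝ ∞ (LyG s e₂ k p) := contDiff_LyG hs.sm he₂.sb he₂.sc hk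
  have hcom : ∀ z ∈ Un n, ∀ p, LyG s e₂ (LxG s e₁ k) p z = LxG s e₁ (LyG s e₂ k) p z :=
    fun z _ p => LyG_LxG hs.sm hs.sm he₁.sb he₁.sc he₂.sb he₂.sc hC hk p z
  generalize hG₁ : LxG s e₁ k = F₁ at *
  generalize hG₂ : LyG s e₂ k = F₂ at *
  -- the key estimate
  have key : ∀ τ H : ℝ, 0 < H → τS ≤ τ → 2 ≤ τ → 128 * n ≤ τ →
      (∀ p, ∀ z ∈ Un n, F₁ p z ^ 2 * Real.exp (-(2 * τ * sq (z.1 - z.2))) ≤
        H ^ 2 * Real.exp (-(τ * sq (z.1 - z.2)))) →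
      (∀ p, ∀ z ∈ Un n, F₂ p z ^ 2 * Real.exp (-(2 * τ * sq (z.1 - z.2))) ≤
        H ^ 2 * Real.exp (-(τ * sq (z.1 - z.2)))) →
      (∀ x ∈ Bs n (3 / 4), ∀ p, ∀ l ≤ KI, ∀ z ∈ Metric.ball ((x, x) : VV n) (2 / √τ),
        ‖iteratedFDeriv ℝ l (fun z => F₁ p z + F₂ p z) z‖ ≤ H * √τ ^ l) →
      ∃ w : Fin m → VV n → ℝ, (∀ p, ContDiffOn ℝ ∞ (w p) (Un n)) ∧
        (∀ z ∈ Un n, ∀ p, LxG s e₁ w p z = F₁ p z ∧ LyG s e₂ w p z = F₂ p z) ∧
        ∫ x in Bs n (3 / 4), ∑ p, |w p (x, x)| ≤ C5 n m CS CI * (H / √τ) ∧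
        ∫ x in Bs n (3 / 4), ∑ p, ∑ i, (|dx i (w p) (x, x)| + |dy i (w p) (x, x)|) ≤
          2 * n * (C5 n m CS CI * H) := by
    intro τ H hH hτS' hτ2 hτn h1 h2 h3
    have hτ0 : 0 < τ := by linarith
    have hs1 : 1 ≤ √τ := by rw [Real.one_le_sqrt]; linarith
    have hsrc := fun p => src_bd hτ2 (hF₁ p).continuous (hF₂ p).continuous (h1 p) (h2 p)
    obtain ⟨w, hw, hw1, hw2, hwI, hwJ⟩ := hS s s e₁ e₂
      (TS_mono (by omega) (min_le_left _ _) hs) (TS_mono (by omega) (min_le_left _ _) hs)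
      (CoOk_mono (by omega) (min_le_left _ _) le_rfl he₁)
      (CoOk_mono (by omega) (min_le_left _ _) le_rfl he₂) hC 0 τ le_rfl (DB_self 3 s) hτS'
      (by simpa using hεS.le) F₁ F₂ (fun p => (hF₁ p).contDiffOn) (fun p => (hF₂ p).contDiffOn)
      hcom (fun p => (hsrc p).1)
    have hJ : ∑ p, ∫ z in Un n, w p z ^ 2 * wT τ z ≤
        CS / τ * (m * (8 * H ^ 2 * (volume.real (Bn n) * √(Real.pi / τ) ^ n))) := by
      refine hwJ.trans (mul_le_mul_of_nonneg_left ?_ (by positivity))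
      calc _ ≤ ∑ _p : Fin m, 8 * H ^ 2 * (volume.real (Bn n) * √(Real.pi / τ) ^ n) :=
            Finset.sum_le_sum fun p _ => (hsrc p).2
        _ = _ := by simp
    have hsub : ∀ x ∈ Bs n (3 / 4), Metric.ball ((x, x) : VV n) (2 / √τ) ⊆ Un n :=
      fun x hx z hz => (ball_facts hτ0 hτn hx hz).1
    have hint := (mean_bd hCS hτ2 hτn hw hwI hJ).1
    have hD : ∀ x ∈ Bs n (3 / 4), ∀ p, ∀ l ≤ 2, ‖iteratedFDeriv ℝ l (w p) (x, x)‖ ≤
        CI * (√τ ^ (n + l) * √(∑ q, ∫ z in Metric.ball (x, x) (2 / √τ), w q z ^ 2)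
          + H * √τ ^ l / √τ ^ 2) := by
      intro x hx
      refine hI s s e₁ e₂ hs.sm hs.sm
        (fun i j => Cl_mono (by omega) (min_le_right _ _) (hs.cl i j))
        (fun i j => Cl_mono (by omega) (min_le_right _ _) (hs.cl i j))
        (CoOk_mono (by omega) (by linarith) (by linarith) he₁)
        (CoOk_mono (by omega) (by linarith) (by linarith) he₂) (x, x) √τ hs1 w
        (fun p z => F₁ p z + F₂ p z) (fun p => (hw p).mono (hsub x hx))
        (fun p => ((hF₁ p).add (hF₂ p)).contDiffOn) ?_ (hint x hx) H (h3 x hx)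
      intro z hz p
      rw [hw1 z (hsub x hx hz) p, hw2 z (hsub x hx hz) p]
    obtain ⟨c1, c2⟩ := core hCS hCI hH hτ2 hτn hw hwI hJ hD
    exact ⟨w, hw, fun z hz p => ⟨hw1 z hz p, hw2 z hz p⟩, c1, c2⟩
  -- the bounds
  obtain ⟨B₁, hB₁0, hB₁⟩ := exists_bd_all hF₁ (KI + 1)
  obtain ⟨B₂, hB₂0, hB₂⟩ := exists_bd_all hF₂ (KI + 1)
  set B : ℝ := B₁ + B₂ with hBdef
  have hB0 : 0 ≤ B := by positivity
  have hB₁' : ∀ p, ∀ l ≤ KI + 1, ∀ z ∈ Metric.closedBall (0 : VV n) 1,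
      ‖iteratedFDeriv ℝ l (F₁ p) z‖ ≤ B := fun p l hl z hz => (hB₁ p l hl z hz).trans (by linarith)
  have hB₂' : ∀ p, ∀ l ≤ KI + 1, ∀ z ∈ Metric.closedBall (0 : VV n) 1,
      ‖iteratedFDeriv ℝ l (F₂ p) z‖ ≤ B := fun p l hl z hz => (hB₂ p l hl z hz).trans (by linarith)
  set H₀ : ℝ := 8 * B + 1 with hH₀
  have hH₀0 : 0 < H₀ := by linarith
  set c : ℝ := C5 n m CS CI with hc
  have hc0 : 0 ≤ c := C5_nonneg hCS.le hCI.le
  set R : ℝ := (2 * n + 1) * (c * H₀) / δ with hR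
  have hR0 : 0 ≤ R := by positivity
  have hn0 : (0 : ℝ) ≤ 128 * n := by positivity
  set τ : ℝ := τS + 2 + 128 * n + R ^ 2 with hτ
  have hR2 : 0 ≤ R ^ 2 := sq_nonneg R
  have t1 : τS ≤ τ := by linarith
  have t2 : 2 ≤ τ := by linarith
  have t3 : 128 * n ≤ τ := by linarith
  have hτ0 : 0 < τ := by linarith
  have hs0 : 0 < √τ := Real.sqrt_pos.2 hτ0
  have hs1 : 1 ≤ √τ := by rw [Real.one_le_sqrt]; linarith
  have hsR : R ≤ √τ := Real.le_sqrt_of_sq_le (by linarith)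
  have hs2 : √τ ^ 2 = τ := Real.sq_sqrt hτ0.le
  have hfin : (2 * n + 1) * (c * H₀) / √τ ≤ δ := by
    rw [div_le_iff₀ hs0]
    rw [hR, div_le_iff₀ hδ] at hsR
    linarith
  have hcH : 0 ≤ c * H₀ := by positivity
  have hfin1 : c * (H₀ / √τ) ≤ δ := by
    refine le_trans ?_ hfin
    rw [← mul_div_assoc]
    refine div_le_div_of_nonneg_right ?_ hs0.le
    have hnn : (0 : ℝ) ≤ 2 * n * (c * H₀) := by positivity
    linarith
  have hfin2 : 2 * n * (c * (H₀ / √τ)) ≤ δ := by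
    refine le_trans ?_ hfin
    have e : 2 * (n : ℝ) * (c * (H₀ / √τ)) = 2 * n * (c * H₀) / √τ := by ring
    rw [e]
    refine div_le_div_of_nonneg_right ?_ hs0.le
    linarith
  have hexp : ∀ z : VV n, Real.exp (-(2 * τ * sq (z.1 - z.2))) ≤
      Real.exp (-(τ * sq (z.1 - z.2))) := by
    intro z
    refine Real.exp_le_exp.2 ?_
    have := mul_nonneg hτ0.le (sq_nonneg' (z.1 - z.2))
    linarith
  by_cases hcond : ∀ x ∈ Bn n, ∀ p, F₁ p (x, x) = 0 ∧ F₂ p (x, x) = 0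
  · -- the right hand sides vanish on the diagonal
    have hd1 : ∀ p, ∀ z ∈ Un n, |F₁ p z| ≤ B * ‖z.2 - z.1‖ := fun p z hz =>
      diag_le (hF₁ p) (hB₁' p 1 (by omega)) (fun x hx => (hcond x hx p).1) hz
    have hd2 : ∀ p, ∀ z ∈ Un n, |F₂ p z| ≤ B * ‖z.2 - z.1‖ := fun p z hz =>
      diag_le (hF₂ p) (hB₂' p 1 (by omega)) (fun x hx => (hcond x hx p).2) hz
    have hsqb : ∀ (f : ℝ) (z : VV n), |f| ≤ B * ‖z.2 - z.1‖ →
        f ^ 2 * Real.exp (-(2 * τ * sq (z.1 - z.2))) ≤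
        (H₀ / √τ) ^ 2 * Real.exp (-(τ * sq (z.1 - z.2))) := by
      intro f z hf
      have a1 : f ^ 2 ≤ B ^ 2 * sq (z.1 - z.2) := by
        calc f ^ 2 = |f| ^ 2 := (sq_abs f).symm
          _ ≤ (B * ‖z.2 - z.1‖) ^ 2 := pow_le_pow_left₀ (abs_nonneg _) hf 2
          _ = B ^ 2 * ‖z.2 - z.1‖ ^ 2 := by ring
          _ ≤ B ^ 2 * sq (z.1 - z.2) :=
            mul_le_mul_of_nonneg_left (norm_sub_sq_le _ _) (sq_nonneg _)
      have a2 : B ^ 2 ≤ H₀ ^ 2 := pow_le_pow_left₀ hB0 (by linarith) 2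
      have a3 := texp (mul_nonneg hτ0.le (sq_nonneg' (z.1 - z.2)))
      have e3 : 2 * (τ * sq (z.1 - z.2)) = 2 * τ * sq (z.1 - z.2) := by ring
      rw [e3] at a3
      calc f ^ 2 * Real.exp (-(2 * τ * sq (z.1 - z.2)))
          ≤ B ^ 2 * sq (z.1 - z.2) * Real.exp (-(2 * τ * sq (z.1 - z.2))) :=
            mul_le_mul_of_nonneg_right a1 (Real.exp_pos _).le
        _ ≤ H₀ ^ 2 * sq (z.1 - z.2) * Real.exp (-(2 * τ * sq (z.1 - z.2))) :=
            mul_le_mul_of_nonneg_right (mul_le_mul_of_nonneg_right a2 (sq_nonneg' _))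
              (Real.exp_pos _).le
        _ = H₀ ^ 2 / τ * (τ * sq (z.1 - z.2) * Real.exp (-(2 * τ * sq (z.1 - z.2)))) := by
            field_simp
        _ ≤ H₀ ^ 2 / τ * Real.exp (-(τ * sq (z.1 - z.2))) :=
            mul_le_mul_of_nonneg_left a3 (by positivity)
        _ = (H₀ / √τ) ^ 2 * Real.exp (-(τ * sq (z.1 - z.2))) := by rw [div_pow, hs2]
    obtain ⟨w, hw, hwe, i1, i2⟩ := key τ (H₀ / √τ) (by positivity) t1 t2 t3
      (fun p z hz => hsqb _ z (hd1 p z hz)) (fun p z hz => hsqb _ z (hd2 p z hz)) (by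
        intro x hx p l hl z hz
        have hzU : z ∈ Un n := (ball_facts hτ0 t3 hx hz).1
        rcases Nat.eq_zero_or_pos l with rfl | hl0
        · rw [norm_iteratedFDeriv_zero, Real.norm_eq_abs, pow_zero, mul_one]
          have b1 := hd1 p z hzU
          have b2 := hd2 p z hzU
          have b3 : ‖z.2 - z.1‖ ≤ 4 / √τ := by
            obtain ⟨hz1, hz2⟩ := mem_ball_pp.1 hz
            rw [← dist_eq_norm]
            have := dist_triangle_right z.2 z.1 x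
            have e4 : 4 / √τ = 2 / √τ + 2 / √τ := by ring
            rw [e4]
            linarith
          calc |F₁ p z + F₂ p z| ≤ |F₁ p z| + |F₂ p z| := abs_add_le _ _
            _ ≤ 2 * B * ‖z.2 - z.1‖ := by linarith
            _ ≤ 2 * B * (4 / √τ) := mul_le_mul_of_nonneg_left b3 (by positivity)
            _ = 8 * B / √τ := by ring
            _ ≤ H₀ / √τ := div_le_div_of_nonneg_right (by linarith) hs0.le
        · have hzc := Un_subset hzU
          refine (add_bd (hF₁ p) (hF₂ p) (hB₁' p l (by omega) z hzc)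
            (hB₂' p l (by omega) z hzc)).trans ?_
          have hp : √τ ≤ √τ ^ l := le_self_pow₀ hs1 (by omega)
          calc B + B ≤ H₀ := by linarith
            _ = H₀ / √τ * √τ := by field_simp
            _ ≤ H₀ / √τ * √τ ^ l := mul_le_mul_of_nonneg_left hp (by positivity))
    refine ⟨w, hw, hwe, i1.trans ?_, fun _ => i2.trans hfin2⟩
    refine le_trans ?_ hfin1
    refine mul_le_mul_of_nonneg_left ?_ hc0
    exact div_le_self (by positivity) hs1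
  · have hsqb : ∀ (f : ℝ) (z : VV n), |f| ≤ B → f ^ 2 * Real.exp (-(2 * τ * sq (z.1 - z.2))) ≤
        H₀ ^ 2 * Real.exp (-(τ * sq (z.1 - z.2))) := by
      intro f z hf
      have a1 : f ^ 2 ≤ H₀ ^ 2 := by
        rw [← sq_abs]
        exact pow_le_pow_left₀ (abs_nonneg _) (by linarith) 2
      exact mul_le_mul a1 (hexp z) (Real.exp_pos _).le (sq_nonneg _)
    have hz1 : ∀ p, ∀ z ∈ Un n, |F₁ p z| ≤ B := by
      intro p z hz
      have := hB₁' p 0 (by omega) z (Un_subset hz)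
      rwa [norm_iteratedFDeriv_zero, Real.norm_eq_abs] at this
    have hz2 : ∀ p, ∀ z ∈ Un n, |F₂ p z| ≤ B := by
      intro p z hz
      have := hB₂' p 0 (by omega) z (Un_subset hz)
      rwa [norm_iteratedFDeriv_zero, Real.norm_eq_abs] at this
    obtain ⟨w, hw, hwe, i1, -⟩ := key τ H₀ hH₀0 t1 t2 t3
      (fun p z hz => hsqb _ z (hz1 p z hz)) (fun p z hz => hsqb _ z (hz2 p z hz)) (by
        intro x hx p l hl z hz
        have hzU : z ∈ Un n := (ball_facts hτ0 t3 hx hz).1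
        have hzc := Un_subset hzU
        refine (add_bd (hF₁ p) (hF₂ p) (hB₁' p l (by omega) z hzc)
          (hB₂' p l (by omega) z hzc)).trans ?_
        have hp : 1 ≤ √τ ^ l := one_le_pow₀ hs1
        calc B + B ≤ H₀ * 1 := by linarith
          _ ≤ H₀ * √τ ^ l := mul_le_mul_of_nonneg_left hp hH₀0.le)
    exact ⟨w, hw, hwe, i1.trans hfin1, fun h => absurd h hcond⟩

end Vale.Agent.P088.HY.H475
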